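import Vale.Agent.P159.T1.D.Stmts

/-!
# P159 T1, row D.LOW: the ring statement

`StmtRing` is the statement for one scale (helper226, RING); `StmtLow` follows from it
(`Scales.lean`).
-/

namespace Vale.Agent.P159.T1.D

/-- the slit ring: the faces of `[-m, m)²` outside of `[-n, n)²`, without the slit row -/
noncomputable def ann (n m : ℕ) : Finset Z2 :=
  (Finset.Ico (-(m : ℤ)) m ×ˢ Finset.Ico (-(m : ℤ)) m).filter
    fun f => ¬ (-(n : ℤ) ≤ f.1 ∧ f.1 < n ∧ -(n : ℤ) ≤ f.2 ∧ f.2 < n) ∧ ¬ (f.2 = -1 ∧ f.1 < 0)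

/-- D.RING: one scale. The profile `Γ` has slope at most `1` and is constant off
`[1, log K - 1]` -/
def StmtRing : Prop :=
  ∀ (b V : ℝ) (q : ℕ) (ε : ℝ), bCrit ≤ b → 0 < V → 1 ≤ q → 0 < ε →
    ∃ (K n1 : ℕ) (Γ : ℝ → ℝ), 2 ≤ K ∧ 1 ≤ n1 ∧ Monotone Γ ∧ Monotone (fun τ => τ - Γ τ) ∧
      (∀ τ, τ ≤ 1 → Γ τ = Γ 1) ∧
      (∀ τ, Real.log K - 1 ≤ τ → Γ τ = Γ (Real.log K - 1)) ∧
      ∀ n : ℕ, n1 ≤ n → (1 - ε) * (2 * En V q / helicity b * Real.log K) ≤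
        Vr b (ann n (K * n - 1)) (Bf (helicity b) V q fun τ => Γ (τ - Real.log n))

end Vale.Agent.P159.T1.D
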