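import Vale.Agent.P159.T1.D.H757.Scales
import Vale.Agent.P159.T1.D.H857.Mir
import Vale.Agent.P159.H170.Final

/-!
# P159 T1, row D.LOW: `StmtLow` from `StmtRing` alone
-/

namespace Vale.Agent.P159.T1.D.H757

open Vale.Agent.P159 Vale.Agent.P159.T1.D

theorem stmtMir : StmtMir := fun b r U ρ =>
  H857.Zρ_mir b (fun f => by
    rw [Finset.mem_image]
    constructor
    · rintro ⟨g, hg, rfl⟩
      rwa [H857.mir_mir]
    · intro hf
      exact ⟨mir r f, hf, H857.mir_mir r f⟩) ρ

/-- **(SCALES)** -/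
theorem stmtLow_of_ring (hR : StmtRing) : StmtLow := by
  refine low_of_ring (fun b hb => ?_) stmtMir hR
  have h := H170.final.2.2.1.2.2.2 b hb
  exact ⟨H170.bCrit_pos.trans_le hb,
    lt_of_lt_of_le (by have := Real.pi_pos; positivity) (h.2.1.trans h.2.2.1)⟩

end Vale.Agent.P159.T1.D.H757
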