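import Vale.Agent.P159.T1.D.H757.Ring
import Vale.Agent.P159.T1.D.H407.Tilt
import Vale.Agent.P159.T1.H910.DKit

/-!
# P159 T1, row D.LOW, (SCALES): `StmtLow` from the ring statement

The rings `n_j = n_0 K ^ j` around both tips; FKG for nonnegative charges.
-/

open Filter Topology

namespace Vale.Agent.P159.T1.D.H757

open Vale.Agent.P159.T1.D

variable {Y V : ℝ} {q : ℕ}

/-! ### profiles -/

lemma clp_mono (a A : ℝ) : Monotone (clp a A) := fun _ _ h =>
  max_le_max le_rfl (min_le_min h le_rfl)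

lemma clp_split {a b c : ℝ} (ha : 0 < a) (hab : a ≤ b) (hbc : b ≤ c) (τ : ℝ) :
    clp a c τ = clp a b τ + clp b c τ - Real.log b := by
  have h1 : Real.log a ≤ Real.log b := Real.log_le_log ha hab
  have h2 : Real.log b ≤ Real.log c := Real.log_le_log (ha.trans_le hab) hbc
  unfold clp
  rcases le_total τ (Real.log b) with h | h
  · rw [min_eq_left (h.trans h2), min_eq_left h, max_eq_left h]
    ring
  · have h3 : Real.log b ≤ min τ (Real.log c) := le_min h h2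
    rw [max_eq_right (h1.trans h3), min_eq_right h, max_eq_right h1, max_eq_right h3]
    ring

/-- a profile which is constant off `[0, L]` -/
lemma prof_proj {Γ : ℝ → ℝ} {L : ℝ} (hL : 0 ≤ L) (h0 : ∀ τ, τ ≤ 1 → Γ τ = Γ 1)
    (h1 : ∀ τ, L - 1 ≤ τ → Γ τ = Γ (L - 1)) (τ : ℝ) : Γ (max 0 (min τ L)) = Γ τ := by
  rcases le_total τ 0 with h | h
  · rw [min_eq_left (h.trans hL), max_eq_left h, h0 0 zero_le_one, h0 τ (by linarith)]
  · rcases le_total τ L with h2 | h2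
    · rw [min_eq_left h2, max_eq_right h]
    · rw [min_eq_right h2, max_eq_right hL, h1 L (by linarith), h1 τ (by linarith)]

lemma ring_mono {Γ : ℝ → ℝ} {K n : ℕ} (hK : 1 ≤ K) (hn : 1 ≤ n)
    (hΓ : Monotone fun τ => τ - Γ τ) (h0 : ∀ τ, τ ≤ 1 → Γ τ = Γ 1)
    (h1 : ∀ τ, Real.log K - 1 ≤ τ → Γ τ = Γ (Real.log K - 1)) :
    Monotone fun τ => clp (n : ℝ) ((n : ℝ) * K) τ - Γ (τ - Real.log n) := by
  have hK0 : (0 : ℝ) < K := by exact_mod_cast hK
  have hn0 : (0 : ℝ) < n := by exact_mod_cast hn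
  have hL : 0 ≤ Real.log K := Real.log_nonneg (by exact_mod_cast hK)
  have e : ∀ τ, clp (n : ℝ) ((n : ℝ) * K) τ - Γ (τ - Real.log n) =
      Real.log n + (max 0 (min (τ - Real.log n) (Real.log K)) -
        Γ (max 0 (min (τ - Real.log n) (Real.log K)))) := by
    intro τ
    rw [prof_proj hL h0 h1]
    unfold clp
    rw [Real.log_mul hn0.ne' hK0.ne']
    have e1 : min τ (Real.log n + Real.log K) =
        Real.log n + min (τ - Real.log n) (Real.log K) := by
      rw [← min_add_add_left]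
      congr 1
      ring
    have e2 : max (Real.log n) (Real.log n + min (τ - Real.log n) (Real.log K)) =
        Real.log n + max 0 (min (τ - Real.log n) (Real.log K)) := by
      rw [← max_add_add_left, add_zero]
    rw [e1, e2]
    ring
  intro s t hst
  change clp (n : ℝ) ((n : ℝ) * K) s - Γ (s - Real.log n) ≤
    clp (n : ℝ) ((n : ℝ) * K) t - Γ (t - Real.log n)
  rw [e, e]
  have h2 : max 0 (min (s - Real.log n) (Real.log K)) ≤
      max 0 (min (t - Real.log n) (Real.log K)) :=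
    max_le_max le_rfl (min_le_min (by linarith) le_rfl)
  have h3 := hΓ h2
  simp only at h3
  linarith

/-- the profile of the ring number `j` -/
noncomputable def Gj (Γ : ℝ → ℝ) (K n0 : ℕ) (j : ℕ) (τ : ℝ) : ℝ :=
  Γ (τ - Real.log ((n0 * K ^ j : ℕ) : ℝ))

lemma sum_mono {Γ : ℝ → ℝ} {K n0 : ℕ} (hK : 1 ≤ K) (hn : 1 ≤ n0)
    (hΓ : Monotone fun τ => τ - Γ τ) (h0 : ∀ τ, τ ≤ 1 → Γ τ = Γ 1)
    (h1 : ∀ τ, Real.log K - 1 ≤ τ → Γ τ = Γ (Real.log K - 1)) (J : ℕ) :
    ∀ A : ℝ, (0 < J → ((n0 * K ^ J : ℕ) : ℝ) ≤ A) →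
      Monotone fun τ => clp (n0 : ℝ) A τ - ∑ j ∈ Finset.range J, Gj Γ K n0 j τ := by
  induction J with
  | zero =>
    intro A _
    simp only [Finset.range_zero, Finset.sum_empty, sub_zero]
    exact clp_mono _ _
  | succ J ih =>
    intro A hA
    have hA' := hA (Nat.succ_pos J)
    have hn1 : 1 ≤ n0 * K ^ J := Nat.mul_pos hn (pow_pos hK J)
    have ih' := ih ((n0 * K ^ J : ℕ) : ℝ) fun _ => le_rfl
    have hr := ring_mono (Γ := Γ) (K := K) (n := n0 * K ^ J) hK hn1 hΓ h0 h1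
    have hc := clp_mono (((n0 * K ^ J : ℕ) : ℝ) * K) A
    have e1 : ((n0 * K ^ (J + 1) : ℕ) : ℝ) = ((n0 * K ^ J : ℕ) : ℝ) * K := by
      push_cast
      ring
    rw [e1] at hA'
    have hn0 : (0 : ℝ) < n0 := by exact_mod_cast hn
    have h2 : (n0 : ℝ) ≤ ((n0 * K ^ J : ℕ) : ℝ) := by
      exact_mod_cast Nat.le_mul_of_pos_right n0 (pow_pos hK J)
    have h3 : ((n0 * K ^ J : ℕ) : ℝ) ≤ ((n0 * K ^ J : ℕ) : ℝ) * K :=
      le_mul_of_one_le_right (by positivity) (by exact_mod_cast hK)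
    intro s t hst
    have e2 : ∀ τ, clp (n0 : ℝ) A τ - ∑ j ∈ Finset.range (J + 1), Gj Γ K n0 j τ =
        (clp (n0 : ℝ) ((n0 * K ^ J : ℕ) : ℝ) τ - ∑ j ∈ Finset.range J, Gj Γ K n0 j τ) +
        (clp ((n0 * K ^ J : ℕ) : ℝ) (((n0 * K ^ J : ℕ) : ℝ) * K) τ -
          Γ (τ - Real.log ((n0 * K ^ J : ℕ) : ℝ))) +
        clp (((n0 * K ^ J : ℕ) : ℝ) * K) A τ - Real.log (((n0 * K ^ J : ℕ) : ℝ) * K) -
        Real.log ((n0 * K ^ J : ℕ) : ℝ) := by
      intro τ
      rw [Finset.sum_range_succ, clp_split hn0 h2 (h3.trans hA') τ,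
        clp_split (hn0.trans_le h2) h3 hA' τ]
      unfold Gj
      ring
    have a1 := ih' hst
    have a2 := hr hst
    have a3 := hc hst
    simp only at a1 a2
    change clp (n0 : ℝ) A s - ∑ j ∈ Finset.range (J + 1), Gj Γ K n0 j s ≤
      clp (n0 : ℝ) A t - ∑ j ∈ Finset.range (J + 1), Gj Γ K n0 j t
    rw [e2, e2]
    linarith

lemma ro_sum {ι : Type} (T : Finset ι) (Γ : ι → ℝ → ℝ) (f : Z2) :
    ro Y V q (fun τ => ∑ j ∈ T, Γ j τ) f = ∑ j ∈ T, ro Y V q (Γ j) f := by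
  classical
  induction T using Finset.induction_on with
  | empty =>
    simp only [Finset.sum_empty]
    have h := ro_smul (Y := Y) (V := V) (q := q) (Γ := fun _ => (0 : ℝ)) 0 f
    have e : ((0 : ℝ) • fun _ : ℝ => (0 : ℝ)) = fun _ => 0 := by
      funext τ
      simp
    rw [zero_mul, e] at h
    exact h
  | insert a T ha ih =>
    rw [Finset.sum_insert ha, ← ih, ← ro_add]
    congr 1
    funext τ
    rw [Finset.sum_insert ha]
    rfl

lemma ro_sum_le {Γ : ℝ → ℝ} {K n0 J : ℕ} (hY : 0 < Y) (hV : 0 < V) (hq : 1 ≤ q) (hK : 1 ≤ K)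
    (hn : 1 ≤ n0) (hΓ : Monotone fun τ => τ - Γ τ) (h0 : ∀ τ, τ ≤ 1 → Γ τ = Γ 1)
    (h1 : ∀ τ, Real.log K - 1 ≤ τ → Γ τ = Γ (Real.log K - 1)) {A : ℝ}
    (hA : 0 < J → ((n0 * K ^ J : ℕ) : ℝ) ≤ A) (f : Z2) :
    ∑ j ∈ Finset.range J, ro Y V q (Gj Γ K n0 j) f ≤ ro Y V q (clp n0 A) f := by
  rw [← ro_sum]
  exact ro_mono hY hV hq (sum_mono hK hn hΓ h0 h1 J A hA) f

/-! ### the rings -/

lemma ann_off {n m : ℕ} : ∀ f ∈ ann n m, f.2 ≠ -1 ∨ 0 ≤ f.1 := by
  intro f hf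
  unfold ann at hf
  rw [Finset.mem_filter] at hf
  have h := hf.2.2
  by_contra hc
  push Not at hc
  exact h hc

lemma ann_sub {n m R r : ℕ} (hR : m ≤ R) (hr : m ≤ r) : ann n m ⊆ SB R r := by
  intro f hf
  unfold ann at hf
  unfold SB
  rw [Finset.mem_filter, Finset.mem_product, Finset.mem_Ico, Finset.mem_Ico] at hf ⊢
  obtain ⟨⟨⟨h1, h2⟩, h3, h4⟩, _, h6⟩ := hf
  refine ⟨⟨⟨by omega, by omega⟩, by omega, by omega⟩, fun h7 => h6 ⟨h7.1, ?_⟩⟩
  rcases h7.2 with h8 | h8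
  · exact h8
  · omega

lemma image_mir_sub {R r : ℕ} {U : Finset Z2} (h : U ⊆ SB R r) : U.image (mir r) ⊆ SB R r := by
  intro f hf
  rw [Finset.mem_image] at hf
  obtain ⟨g, hg, rfl⟩ := hf
  exact mir_SB (h hg)

lemma bump_nonneg {r : ℕ} {κ x y s : ℝ} (hκ : 0 ≤ κ) (f : Z2) : 0 ≤ bump r κ x y s f := by
  unfold bump
  positivity

lemma En_pos (hV : 0 < V) (hq : 1 ≤ q) : 0 < En V q := by
  unfold En
  have h1 := ang_pos hq
  have h2 := two_pi_sub_ang_pos q
  positivity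

/-! ### the statement -/

/-- the reflection of the slit box which exchanges the two tips -/
def StmtMir : Prop :=
  ∀ (b : ℝ) (r : ℕ) (U : Finset Z2) (ρ : Z2 → ℝ),
    Zρ b (U.image (mir r)) (fun f => ρ (mir r f)) = Zρ b U ρ

lemma Zρ_zero (b : ℝ) (U : Finset Z2) : Zρ b U 0 = Z b U := by
  unfold Zρ Z ch
  refine tsum_congr fun h => ?_
  simp

lemma Z_mir (hm : StmtMir) (b : ℝ) (r : ℕ) (U : Finset Z2) : Z b (U.image (mir r)) = Z b U := by
  rw [← Zρ_zero, ← Zρ_zero, ← hm b r U 0]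
  rfl

/-- the product over the rings of both tips -/
lemma rings {b : ℝ} (hb : 0 ≤ b) (hm : StmtMir) {n0 K J R r : ℕ} {Γ : ℝ → ℝ} {x : ℝ}
    {κ x0 y s : ℝ} (hκ : 0 ≤ κ) (hY : 0 < Y) (hV : 0 < V) (hq : 1 ≤ q) (hK : 1 ≤ K) (hn : 1 ≤ n0)
    (hΓ0 : Monotone Γ) (hΓ : Monotone fun τ => τ - Γ τ) (h0 : ∀ τ, τ ≤ 1 → Γ τ = Γ 1)
    (h1 : ∀ τ, Real.log K - 1 ≤ τ → Γ τ = Γ (Real.log K - 1))
    (hJ : 0 < J → n0 * K ^ J * 4 ≤ r) (hR : r ≤ R)
    (hx : ∀ j < J, x ≤ Vr b (ann (n0 * K ^ j) (K * (n0 * K ^ j) - 1))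
      (Bf Y V q (Gj Γ K n0 j)) / 2) :
    Real.exp (2 * J * x) * Z b (SB R r) ≤ Zρ b (SB R r) (rho Y V q n0 r κ x0 y s) := by
  classical
  set U := SB R r with hU
  have hZ := H910.Z_pos hb U
  have hmon : ∀ j, Monotone (Gj Γ K n0 j) := fun j a b hab => hΓ0 (by linarith)
  have hpos : ∀ j f, 0 ≤ ro Y V q (Gj Γ K n0 j) f := fun j f =>
    ro_nonneg hY hV hq (hmon j) f
  set T : Finset (ℕ × Bool) := Finset.range J ×ˢ Finset.univ with hT
  set ρ : ℕ × Bool → Z2 → ℝ := fun p f =>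
    if p.2 then ro Y V q (Gj Γ K n0 p.1) (mir r f) else ro Y V q (Gj Γ K n0 p.1) f with hρ
  set W : ℕ × Bool → Finset Z2 := fun p =>
    if p.2 then (ann (n0 * K ^ p.1) (K * (n0 * K ^ p.1) - 1)).image (mir r)
      else ann (n0 * K ^ p.1) (K * (n0 * K ^ p.1) - 1) with hW
  have hsub : ∀ j < J, ann (n0 * K ^ j) (K * (n0 * K ^ j) - 1) ⊆ U := by
    intro j hj
    have h2 := hJ (lt_of_le_of_lt (Nat.zero_le j) hj)
    have h3 : K * (n0 * K ^ j) ≤ n0 * K ^ J := by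
      calc K * (n0 * K ^ j) = n0 * K ^ (j + 1) := by ring
        _ ≤ n0 * K ^ J := Nat.mul_le_mul_left _ (Nat.pow_le_pow_right hK hj)
    exact ann_sub (by omega) (by omega)
  have hp := H910.Zr_prod (U := U) hb T (ρ := ρ) (Y := W)
    (by
      rintro ⟨j, c⟩ _ f _
      cases c
      · exact hpos j f
      · exact hpos j (mir r f))
    (by
      rintro ⟨j, c⟩ hj
      have hj' : j < J := by
        rw [hT, Finset.mem_product] at hj
        exact Finset.mem_range.1 hj.1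
      cases c
      · exact hsub j hj'
      · exact image_mir_sub (hsub j hj'))
  have hle : Zρ b U (fun f => ∑ p ∈ T, ρ p f) ≤ Zρ b U (rho Y V q n0 r κ x0 y s) := by
    refine H910.Zρ_mono_ρ hb (fun f _ => ?_) fun f _ => ?_
    · refine Finset.sum_nonneg ?_
      rintro ⟨j, c⟩ _
      cases c
      · exact hpos j f
      · exact hpos j (mir r f)
    · have e1 : ∑ p ∈ T, ρ p f = ∑ j ∈ Finset.range J, ro Y V q (Gj Γ K n0 j) f +
          ∑ j ∈ Finset.range J, ro Y V q (Gj Γ K n0 j) (mir r f) := by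
        rw [hT, Finset.sum_product, ← Finset.sum_add_distrib]
        refine Finset.sum_congr rfl fun j _ => ?_
        rw [Fintype.sum_bool, hρ]
        simp only [if_true, Bool.false_eq_true, if_false]
        ring
      have hA : 0 < J → ((n0 * K ^ J : ℕ) : ℝ) ≤ (r : ℝ) / 4 := by
        intro hJ0
        have h2 : ((n0 * K ^ J * 4 : ℕ) : ℝ) ≤ r := by exact_mod_cast hJ hJ0
        push_cast at h2 ⊢
        linarith
      have h2 := ro_sum_le (Y := Y) (V := V) (q := q) hY hV hq hK hn hΓ h0 h1 hA f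
      have h3 := ro_sum_le (Y := Y) (V := V) (q := q) hY hV hq hK hn hΓ h0 h1 hA (mir r f)
      rw [e1]
      unfold rho
      have h4 := bump_nonneg (r := r) (x := x0) (y := y) (s := s) hκ f
      have h5 := bump_nonneg (r := r) (x := x0) (y := y) (s := s) hκ (mir r f)
      linarith
  have hfac : ∀ p ∈ T, Real.exp x ≤ Zρ b (W p) (ρ p) / Z b (W p) := by
    rintro ⟨j, c⟩ hj
    have hj' : j < J := by
      rw [hT, Finset.mem_product] at hj
      exact Finset.mem_range.1 hj.1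
    have h2 : Real.exp x ≤
        Zρ b (ann (n0 * K ^ j) (K * (n0 * K ^ j) - 1)) (ro Y V q (Gj Γ K n0 j)) /
          Z b (ann (n0 * K ^ j) (K * (n0 * K ^ j) - 1)) :=
      (Real.exp_le_exp.2 (hx j hj')).trans (H910.exp_Vr_le_div hb (isDiv_Bf' ann_off hq))
    cases c
    · exact h2
    · change Real.exp x ≤
        Zρ b ((ann (n0 * K ^ j) (K * (n0 * K ^ j) - 1)).image (mir r))
          (fun f => ro Y V q (Gj Γ K n0 j) (mir r f)) /
          Z b ((ann (n0 * K ^ j) (K * (n0 * K ^ j) - 1)).image (mir r))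
      rw [hm, Z_mir hm]
      exact h2
  have hprod : Real.exp (2 * J * x) ≤ ∏ p ∈ T, (Zρ b (W p) (ρ p) / Z b (W p)) := by
    have h2 : Real.exp (2 * J * x) = ∏ p ∈ T, Real.exp x := by
      rw [Finset.prod_const, hT, Finset.card_product, Finset.card_range, Finset.card_univ,
        Fintype.card_bool, ← Real.exp_nat_mul]
      congr 1
      push_cast
      ring
    rw [h2]
    exact Finset.prod_le_prod (fun _ _ => (Real.exp_pos _).le) hfac
  have h3 := hprod.trans hp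
  rw [le_div_iff₀ hZ] at h3
  exact h3.trans hle

/-- **(SCALES)** the lower bound in the sector `(0|0)` from the ring statement -/
theorem low_of_ring (hY : ∀ b : ℝ, bCrit ≤ b → 0 < b ∧ 0 < helicity b) (hm : StmtMir)
    (hR : StmtRing) : StmtLow := by
  intro b V q κ x y s ε hb hV hq hε hκ _ _ _ _
  obtain ⟨hb0, hY0⟩ := hY b hb
  have hE := En_pos hV hq
  set E : ℝ := En V q / helicity b with hEd
  have hE0 : 0 < E := div_pos hE hY0
  set ε' : ℝ := min (1 / 2) (ε / (2 * E)) with hε'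
  have hε'0 : 0 < ε' := lt_min (by norm_num) (by positivity)
  have hε'1 : ε' ≤ 1 / 2 := min_le_left _ _
  have hε'2 : 2 * ε' * E ≤ ε := by
    have h := min_le_right (1 / 2) (ε / (2 * E))
    rw [← hε', le_div_iff₀ (by positivity)] at h
    linarith
  obtain ⟨K, n1, Γ, hK, hn1, hΓ0, hΓ, h0, h1, hV1⟩ := hR b V q ε' hb hV hq hε'0
  have hK1 : 1 ≤ K := by omega
  have hK0 : (0 : ℝ) < K := by exact_mod_cast (by omega : 0 < K)
  have hlK : 0 ≤ Real.log K := Real.log_nonneg (by exact_mod_cast hK1)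
  refine ⟨n1, fun n0 hn0 => ?_⟩
  have hn0' : 1 ≤ n0 := hn1.trans hn0
  have hn00 : (0 : ℝ) < n0 := by exact_mod_cast (by omega : 0 < n0)
  refine ⟨2 * (1 - ε') * E * (Real.log (4 * n0) + Real.log K), fun A r hA hr => ?_⟩
  have hr1 : 1 ≤ r := hn1.trans hr
  have hr0 : (0 : ℝ) < r := by exact_mod_cast (by omega : 0 < r)
  set J : ℕ := Nat.log K (r / (4 * n0)) with hJ
  have hJr : 0 < J → n0 * K ^ J * 4 ≤ r := by
    intro hJ0
    have h2 : r / (4 * n0) ≠ 0 := by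
      intro h
      rw [hJ, h, Nat.log_zero_right] at hJ0
      exact absurd hJ0 (lt_irrefl _)
    have h3 := Nat.pow_log_le_self K h2
    rw [← hJ, Nat.le_div_iff_mul_le (by omega)] at h3
    calc n0 * K ^ J * 4 = K ^ J * (4 * n0) := by ring
      _ ≤ r := h3
  have hJl : Real.log r ≤ Real.log (4 * n0) + Real.log K + J * Real.log K := by
    have h2 := Nat.lt_pow_succ_log_self (b := K) (by omega) (r / (4 * n0))
    rw [← hJ] at h2
    have h3 : r < 4 * n0 * K ^ (J + 1) := by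
      have h4 := Nat.lt_mul_div_succ r (show 0 < 4 * n0 by omega)
      calc r < 4 * n0 * (r / (4 * n0) + 1) := h4
        _ ≤ 4 * n0 * K ^ (J + 1) := Nat.mul_le_mul_left _ h2
    have h4 : (r : ℝ) ≤ 4 * n0 * K ^ (J + 1) := by exact_mod_cast h3.le
    calc Real.log r ≤ Real.log (4 * n0 * K ^ (J + 1)) := Real.log_le_log hr0 h4
      _ = _ := by
        rw [Real.log_mul (by positivity) (by positivity), Real.log_pow]
        push_cast
        ring
  have hx : ∀ j < J, (1 - ε') * (E * Real.log K) ≤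
      Vr b (ann (n0 * K ^ j) (K * (n0 * K ^ j) - 1))
        (Bf (helicity b) V q (Gj Γ K n0 j)) / 2 := by
    intro j _
    have h2 : n1 ≤ n0 * K ^ j := hn0.trans (Nat.le_mul_of_pos_right n0 (pow_pos hK1 j))
    have h3 := hV1 (n0 * K ^ j) h2
    have h4 : (1 - ε') * (2 * En V q / helicity b * Real.log K) =
        2 * ((1 - ε') * (E * Real.log K)) := by
      rw [hEd]
      ring
    rw [h4] at h3
    have h5 : (Gj Γ K n0 j) = fun τ => Γ (τ - Real.log ((n0 * K ^ j : ℕ) : ℝ)) := rfl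
    rw [h5]
    linarith
  refine le_trans (mul_le_mul_of_nonneg_right (Real.exp_le_exp.2 ?_) (H910.Z_pos hb0.le _).le)
    (rings hb0.le hm (n0 := n0) (K := K) (J := J) (R := A * r) (r := r) (Γ := Γ)
      (x := (1 - ε') * (E * Real.log K)) (x0 := x) (y := y) (s := s) hκ.le hY0 hV hq hK1 hn0' hΓ0
      hΓ h0 h1 hJr (Nat.le_mul_of_pos_left r hA) hx)
  have hlr : 0 ≤ Real.log r := Real.log_nonneg (by exact_mod_cast hr1)
  have e1 : 2 * Real.log r / helicity b * En V q = 2 * E * Real.log r := by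
    rw [hEd]
    ring
  rw [e1]
  have h2 : 0 ≤ 2 * (1 - ε') * E := by
    have : 0 ≤ 1 - ε' := by linarith
    positivity
  have h3 : 2 * (1 - ε') * E * (Real.log r - (Real.log (4 * n0) + Real.log K)) ≤
      2 * (1 - ε') * E * (J * Real.log K) := mul_le_mul_of_nonneg_left (by linarith) h2
  have h4 : 2 * ε' * E * Real.log r ≤ ε * Real.log r := mul_le_mul_of_nonneg_right hε'2 hlr
  nlinarith

end Vale.Agent.P159.T1.D.H757
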